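import Vale.Agent.Lib.P166.Limit

namespace Vale.Agent.Results.P166.A_universal

open MeasureTheory Filter Topology Vale.Agent.Lib.P166

/-- Universality of the limiting pressure of orthogonally invariant Ising spin glasses: for every
`β > 0` and every compactly supported `μ` with `a = max supp μ` and `b = min supp μ`, two
eigenvalue sequences satisfying the hypotheses of the problem for `μ` have expected pressures with
difference tending to `0`; for decreasing lists, the same holds in `L¹` under the coupling by the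
same Haar matrix. The third part is the explicit estimate at finite `N` behind this. -/
theorem result (μ : Measure ℝ) [IsProbabilityMeasure μ] {a b : ℝ}
    (_ha : μ (Set.Ioi a) = 0) (ha' : ∀ η > 0, 0 < μ (Set.Ioi (a - η)))
    (_hb : μ (Set.Iio b) = 0) (_hb' : ∀ η > 0, 0 < μ (Set.Iio (b + η)))
    {β : ℝ} (hβ : 0 < β) {Λ Λ' : (N : ℕ) → Fin N → ℝ}
    (h : SpectralLimit μ a b Λ) (h' : SpectralLimit μ a b Λ') :
    Tendsto (fun N => ∫ U, pressure β (Λ N) U ∂haarO N - ∫ U, pressure β (Λ' N) U ∂haarO N)
        atTop (𝓝 0) ∧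
    ((∀ N, Antitone (Λ N)) → (∀ N, Antitone (Λ' N)) →
      Tendsto (fun N => ∫ U, |pressure β (Λ N) U - pressure β (Λ' N) U| ∂haarO N)
        atTop (𝓝 0)) ∧
    (∀ (N : ℕ), 0 < N → ∀ L L' : Fin N → ℝ, Antitone L → Antitone L' →
      ∫ U, |pressure β L U - pressure β L' U| ∂haarO N ≤
        β / 2 * ∑ k : Fin N, |L k - L' k| / ((k : ℝ) + 1)) :=
  ⟨tendsto_meanP ha' hβ h h', fun hs hs' => tendsto_abs_pressure ha' hβ hs hs' h h',
    fun _ hN _ _ hL hL' => abs_le_harmonic hN hβ hL hL'⟩

end Vale.Agent.Results.P166.A_universal
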